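import Mathlib

/-!
# P207, all dimensions, last step: the final inequality, abstract form

`S = U + U ∘ σ` symmetric and positive of size `n`, `log det S = r + r ∘ σ`, `∫ tr U = h`,
`κ = 2 h / n`, `∫ e^r / det S ≤ κ ^ (-n / 2)`. Then `S = κ Id`.
-/

open MeasureTheory Filter Topology Set
open scoped Matrix

noncomputable section

namespace Vale.Agent.P207.H582

section Alg

variable {ι : Type*} [Fintype ι] [DecidableEq ι]

/-- a symmetric matrix all of whose eigenvalues are `κ` -/
theorem eq_smul_one_of_eig {S : Matrix ι ι ℝ} (hS : S.IsHermitian) {κ : ℝ}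
    (h : ∀ i, hS.eigenvalues i = κ) : S = κ • (1 : Matrix ι ι ℝ) := by
  have h1 := hS.spectral_theorem
  have h2 : Matrix.diagonal ((RCLike.ofReal : ℝ → ℝ) ∘ hS.eigenvalues) =
      κ • (1 : Matrix ι ι ℝ) := by
    have h3 : ((RCLike.ofReal : ℝ → ℝ) ∘ hS.eigenvalues) = fun _ => κ := by
      funext i
      simp only [Function.comp, h i]
      simp
    rw [h3, Matrix.smul_one_eq_diagonal]
  rw [h2, map_smul, map_one] at h1
  exact h1

/-- `log det S - n log κ ≤ tr S / κ - n`, with equality for `S = κ Id` only -/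
theorem log_det_le {S : Matrix ι ι ℝ} (hS : S.PosDef) {κ : ℝ} (hκ : 0 < κ) :
    Real.log S.det - Fintype.card ι * Real.log κ ≤ S.trace / κ - Fintype.card ι ∧
      (Real.log S.det - Fintype.card ι * Real.log κ = S.trace / κ - Fintype.card ι →
        S = κ • (1 : Matrix ι ι ℝ)) := by
  have hH := hS.1
  have hpos : ∀ i, 0 < hH.eigenvalues i := fun i => hS.eigenvalues_pos i
  have hdet : Real.log S.det = ∑ i, Real.log (hH.eigenvalues i) := by
    rw [hH.det_eq_prod_eigenvalues]
    simp only [RCLike.ofReal_real_eq_id, id_eq]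
    exact Real.log_prod fun i _ => (hpos i).ne'
  have htr : S.trace = ∑ i, hH.eigenvalues i := by
    rw [hH.trace_eq_sum_eigenvalues]
    simp
  have hL : Real.log S.det - Fintype.card ι * Real.log κ =
      ∑ i, Real.log (hH.eigenvalues i / κ) := by
    rw [hdet]
    have : ∀ i, Real.log (hH.eigenvalues i / κ) = Real.log (hH.eigenvalues i) - Real.log κ :=
      fun i => Real.log_div (hpos i).ne' hκ.ne'
    simp only [this, Finset.sum_sub_distrib, Finset.sum_const, Finset.card_univ, nsmul_eq_mul]
  have hT : S.trace / κ - Fintype.card ι = ∑ i, (hH.eigenvalues i / κ - 1) := by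
    rw [htr]
    simp only [Finset.sum_sub_distrib, Finset.sum_const, Finset.card_univ, nsmul_eq_mul, mul_one,
      Finset.sum_div]
  rw [hL, hT]
  have hle : ∀ i, Real.log (hH.eigenvalues i / κ) ≤ hH.eigenvalues i / κ - 1 := fun i =>
    Real.log_le_sub_one_of_pos (div_pos (hpos i) hκ)
  refine ⟨Finset.sum_le_sum fun i _ => hle i, fun heq => ?_⟩
  refine eq_smul_one_of_eig hH fun i => ?_
  by_contra hne
  have h1 : hH.eigenvalues i / κ ≠ 1 := fun h => hne ((div_eq_one_iff_eq hκ.ne').1 h)
  have h2 : ∑ i, Real.log (hH.eigenvalues i / κ) < ∑ i, (hH.eigenvalues i / κ - 1) :=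
    Finset.sum_lt_sum (fun i _ => hle i)
      ⟨i, Finset.mem_univ i, Real.log_lt_sub_one_of_pos (div_pos (hpos i) hκ) h1⟩
  exact h2.ne heq

/-- the trace of a positive matrix is positive -/
theorem trace_pos' [Nonempty ι] {S : Matrix ι ι ℝ} (hS : S.PosDef) : 0 < S.trace := by
  have hH := hS.1
  have htr : S.trace = ∑ i, hH.eigenvalues i := by
    rw [hH.trace_eq_sum_eigenvalues]
    simp
  rw [htr]
  exact Finset.sum_pos (fun i _ => hS.eigenvalues_pos i) Finset.univ_nonempty

/-- the constant `κ ^ (-n / 2)` -/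
def cst (n : ℕ) (κ : ℝ) : ℝ := Real.exp (-((n : ℝ) * Real.log κ) / 2)

theorem cst_pos (n : ℕ) (κ : ℝ) : 0 < cst n κ := Real.exp_pos _

theorem cst_eq_sqrt (n : ℕ) {κ : ℝ} (hκ : 0 < κ) : cst n κ = Real.sqrt ((κ⁻¹) ^ n) := by
  have h1 : (κ⁻¹) ^ n = Real.exp (-((n : ℝ) * Real.log κ)) := by
    rw [← Real.exp_log (inv_pos.2 hκ), ← Real.exp_nat_mul, Real.log_inv]
    congr 1
    ring
  rw [cst, h1, ← Real.exp_half]

/-- the pointwise inequality -/
theorem pointwise {S : Matrix ι ι ℝ} (hS : S.PosDef) {r r' κ : ℝ} (hκ : 0 < κ)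
    (hr : Real.log S.det = r + r') :
    0 ≤ (Real.exp r + Real.exp r') / (2 * S.det) -
      cst (Fintype.card ι) κ * (1 - (S.trace / κ - Fintype.card ι) / 2) ∧
    ((Real.exp r + Real.exp r') / (2 * S.det) -
      cst (Fintype.card ι) κ * (1 - (S.trace / κ - Fintype.card ι) / 2) = 0 →
        S = κ • (1 : Matrix ι ι ℝ)) := by
  obtain ⟨h1, h2⟩ := log_det_le hS hκ
  have hD := hS.det_pos
  set D := S.det with hDdef
  set n : ℝ := (Fintype.card ι : ℝ) with hn
  set T := S.trace / κ - n with hT
  set a := Real.log D - n * Real.log κ with ha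
  have hDe : D = Real.exp r * Real.exp r' := by
    rw [← Real.exp_add, ← hr, Real.exp_log hD]
  set x := Real.exp (-r / 2) with hx
  set y := Real.exp (-r' / 2) with hy
  have hx0 : 0 < x := Real.exp_pos _
  have hy0 : 0 < y := Real.exp_pos _
  have hxx : x ^ 2 = (Real.exp r)⁻¹ := by
    rw [hx, ← Real.exp_nat_mul, ← Real.exp_neg]
    congr 1
    push_cast
    ring
  have hyy : y ^ 2 = (Real.exp r')⁻¹ := by
    rw [hy, ← Real.exp_nat_mul, ← Real.exp_neg]
    congr 1
    push_cast
    ring
  have e1 : (Real.exp r + Real.exp r') / (2 * D) = (x ^ 2 + y ^ 2) / 2 := by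
    rw [hxx, hyy, hDe]
    have := Real.exp_pos r
    have := Real.exp_pos r'
    field_simp
    ring
  have e2 : x * y = cst (Fintype.card ι) κ * Real.exp (-a / 2) := by
    rw [hx, hy, cst, ← Real.exp_add, ← Real.exp_add]
    congr 1
    rw [ha, hr]
    ring
  have e3 : Real.exp (-T / 2) ≤ Real.exp (-a / 2) := Real.exp_le_exp.2 (by linarith)
  have e4 : 1 - T / 2 ≤ Real.exp (-T / 2) := by
    have := Real.add_one_le_exp (-T / 2)
    linarith
  have hc := cst_pos (Fintype.card ι) κ
  set c := cst (Fintype.card ι) κ with hcdef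
  have e5 : x * y ≤ (x ^ 2 + y ^ 2) / 2 := by nlinarith [sq_nonneg (x - y)]
  have e6 : c * (1 - T / 2) ≤ c * Real.exp (-T / 2) := mul_le_mul_of_nonneg_left e4 hc.le
  have e7 : c * Real.exp (-T / 2) ≤ c * Real.exp (-a / 2) := mul_le_mul_of_nonneg_left e3 hc.le
  rw [e1]
  refine ⟨by linarith, fun h => ?_⟩
  have f1 : c * (1 - T / 2) = c * Real.exp (-T / 2) := by linarith
  have f2 : c * Real.exp (-T / 2) = c * Real.exp (-a / 2) := by linarith
  have f3 : 1 - T / 2 = Real.exp (-T / 2) := mul_left_cancel₀ hc.ne' f1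
  have f4 : Real.exp (-T / 2) = Real.exp (-a / 2) := mul_left_cancel₀ hc.ne' f2
  have f5 : a = T := by
    have := Real.exp_injective f4
    linarith
  exact h2 f5

end Alg

section Int

variable {P : Type*} [TopologicalSpace P] [CompactSpace P] [MeasurableSpace P]
  [OpensMeasurableSpace P] {m : Measure P} [IsProbabilityMeasure m]

theorem integrable_of_cont {f : P → ℝ} (hf : Continuous f) : Integrable f m := by
  let F : C(P, ℝ) := ⟨f, hf⟩
  have : Integrable (fun x => F x) m := by
    refine Integrable.mono' (integrable_const ‖F‖) hf.aestronglyMeasurable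
      (Eventually.of_forall fun x => F.norm_coe_le_norm x)
  exact this

variable {ι : Type*} [Fintype ι] [DecidableEq ι] [Nonempty ι]

/-- **The final inequality.** `S = κ Id`, `κ = 2 h / n`. -/
theorem S_const [m.IsOpenPosMeasure] {σ : P → P} (hσc : Continuous σ) (hσi : ∀ x, σ (σ x) = x)
    (hσ : ∀ f : P → ℝ, Continuous f → ∫ x, f (σ x) ∂m = ∫ x, f x ∂m)
    {U : P → Matrix ι ι ℝ} (hU : Continuous U) {r : P → ℝ} (hr : Continuous r) {h : ℝ}
    (hS : ∀ x, (U x + U (σ x)).PosDef)
    (hlog : ∀ x, Real.log (U x + U (σ x)).det = r x + r (σ x))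
    (hint : ∫ x, (U x).trace ∂m = h)
    (hF : ∫ x, Real.exp (r x) / (U x + U (σ x)).det ∂m ≤
      cst (Fintype.card ι) (2 * h / Fintype.card ι)) :
    0 < h ∧ ∀ x, U x + U (σ x) = (2 * h / Fintype.card ι) • (1 : Matrix ι ι ℝ) := by
  set n : ℝ := (Fintype.card ι : ℝ) with hn
  have hn0 : 0 < n := by
    rw [hn]
    exact_mod_cast Fintype.card_pos
  set S : P → Matrix ι ι ℝ := fun x => U x + U (σ x) with hSdef
  have hSc : Continuous S := hU.add (hU.comp hσc)
  have hSσ : ∀ x, S (σ x) = S x := fun x => by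
    simp only [hSdef, hσi]
    rw [add_comm]
  have hDc : Continuous fun x => (S x).det := hSc.matrix_det
  have hTc : Continuous fun x => (U x).trace := hU.matrix_trace
  have hD : ∀ x, 0 < (S x).det := fun x => (hS x).det_pos
  have htrS : ∀ x, (S x).trace = (U x).trace + (U (σ x)).trace := fun x => Matrix.trace_add _ _
  have e2 : ∫ x, (U (σ x)).trace ∂m = h := by
    rw [← hint]
    exact hσ (fun x => (U x).trace) hTc
  have i3 : Integrable (fun x => (U x).trace) m := integrable_of_cont hTc
  have i4 : Integrable (fun x => (U (σ x)).trace) m := integrable_of_cont (hTc.comp hσc)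
  have hh : 0 < h := by
    have h1 : ∫ x, (S x).trace ∂m = h + h := by
      simp only [htrS]
      rw [integral_add i3 i4, hint, e2]
    have h2 : 0 < ∫ x, (S x).trace ∂m := by
      rw [integral_pos_iff_support_of_nonneg (fun x => (trace_pos' (hS x)).le)
        (integrable_of_cont hSc.matrix_trace)]
      have h3 : Function.support (fun x => (S x).trace) = univ := by
        ext x
        simp only [Function.mem_support, mem_univ, iff_true]
        exact (trace_pos' (hS x)).ne'
      rw [h3]
      simp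
    linarith
  refine ⟨hh, ?_⟩
  set κ : ℝ := 2 * h / n with hκdef
  have hκ : 0 < κ := by positivity
  set c := cst (Fintype.card ι) κ with hc
  have hc0 : 0 < c := cst_pos _ _
  have hrc : Continuous fun x => Real.exp (r x) / (S x).det :=
    (Real.continuous_exp.comp hr).div hDc fun x => (hD x).ne'
  have hrc' : Continuous fun x => Real.exp (r (σ x)) / (S x).det :=
    (Real.continuous_exp.comp (hr.comp hσc)).div hDc fun x => (hD x).ne'
  have e1 : ∫ x, Real.exp (r (σ x)) / (S x).det ∂m = ∫ x, Real.exp (r x) / (S x).det ∂m := by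
    rw [← hσ _ hrc]
    refine integral_congr_ae (Eventually.of_forall fun x => ?_)
    simp only [hSσ]
  set G : P → ℝ := fun x => (Real.exp (r x) + Real.exp (r (σ x))) / (2 * (S x).det) -
    c * (1 - ((S x).trace / κ - n) / 2) with hG
  have hGc : Continuous G := by
    refine Continuous.sub ?_ ?_
    · refine Continuous.div ((Real.continuous_exp.comp hr).add
        (Real.continuous_exp.comp (hr.comp hσc))) (continuous_const.mul hDc) fun x => ?_
      have := hD x
      positivity
    · exact continuous_const.mul (continuous_const.sub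
        (((hSc.matrix_trace.div_const _).sub continuous_const).div_const _))
  have hG0 : ∀ x, 0 ≤ G x := fun x => (pointwise (hS x) hκ (hlog x)).1
  have hGi : ∫ x, G x ∂m ≤ 0 := by
    obtain ⟨k0, hk0⟩ : ∃ k0 : ℝ, k0 = c * (1 + n / 2) := ⟨_, rfl⟩
    obtain ⟨k1, hk1⟩ : ∃ k1 : ℝ, k1 = c / (2 * κ) := ⟨_, rfl⟩
    have e3 : ∀ x, G x = (1 / 2) * (Real.exp (r x) / (S x).det) +
        (1 / 2) * (Real.exp (r (σ x)) / (S x).det) - k0 +
        k1 * (U x).trace + k1 * (U (σ x)).trace := by
      intro x
      have h1 := (hD x).ne'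
      simp only [hG, htrS, hk0, hk1]
      field_simp
      ring
    have i1 : Integrable (fun x => Real.exp (r x) / (S x).det) m := integrable_of_cont hrc
    have i2 : Integrable (fun x => Real.exp (r (σ x)) / (S x).det) m := integrable_of_cont hrc'
    simp_rw [e3]
    rw [integral_add, integral_add, integral_sub, integral_add, integral_const_mul,
      integral_const_mul, integral_const_mul, integral_const_mul, e1, e2, hint]
    · simp only [integral_const, probReal_univ, smul_eq_mul, one_mul]
      have h4 : k1 * h = c * n / 4 := by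
        rw [hk1, hκdef]
        field_simp
        ring
      rw [h4, hk0]
      linarith
    · exact i1.const_mul _
    · exact i2.const_mul _
    · exact (i1.const_mul _).add (i2.const_mul _)
    · exact integrable_const _
    · exact ((i1.const_mul _).add (i2.const_mul _)).sub (integrable_const _)
    · exact i3.const_mul _
    · exact (((i1.const_mul _).add (i2.const_mul _)).sub (integrable_const _)).add
        (i3.const_mul _)
    · exact i4.const_mul _
  have hGz : G = 0 := by
    have h1 : ∫ x, G x ∂m = 0 := le_antisymm hGi (integral_nonneg hG0)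
    have h2 : G =ᵐ[m] 0 := (integral_eq_zero_iff_of_nonneg hG0 (integrable_of_cont hGc)).1 h1
    exact (Continuous.ae_eq_iff_eq m hGc continuous_const).1 h2
  intro x
  exact (pointwise (hS x) hκ (hlog x)).2 (congrFun hGz x)

end Int

end Vale.Agent.P207.H582
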