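import Vale.Agent.P207.H582.FinIneq

/-!
# P207, all dimensions, last step: `U + U ∘ flip = κ Id` and the Riccati equation give constant
curvature
-/

open MeasureTheory Filter Topology Set
open scoped Matrix

noncomputable section

namespace Vale.Agent.P207.H582

variable {ι : Type*} [Fintype ι] [DecidableEq ι] {P : Type*} {φ : ℝ → P → P} {σ : P → P}
  {U K : P → Matrix ι ι ℝ} {κ : ℝ}

/-- derivative of a function along the flow, after the flip -/
theorem flip_deriv (hφσ : ∀ t x, σ (φ t x) = φ (-t) (σ x)) {F : P → ℝ} {d : P → ℝ}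
    (hF : ∀ p r, HasDerivAt (fun r => F (φ r p)) (d (φ r p)) r) (p : P) :
    HasDerivAt (fun r => F (σ (φ r p))) (-d (φ 0 (σ p))) 0 := by
  have h1 := hF (σ p) (-(0 : ℝ))
  have h2 : HasDerivAt (fun r : ℝ => -r) (-1) 0 := by simpa using (hasDerivAt_neg (0 : ℝ))
  have h3 := h1.scomp (0 : ℝ) h2
  have h4 : (fun r => F (σ (φ r p))) = (fun r => F (φ r (σ p))) ∘ fun r : ℝ => -r := by
    funext r
    simp only [Function.comp, hφσ]
  rw [h4]
  refine h3.congr_deriv ?_
  simp

/-- **Riccati.** `U' = K - U²`, `U + U ∘ σ = κ Id` -/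
theorem const_of_S
    (hR : ∀ p r i j, HasDerivAt (fun s => U (φ s p) i j)
      (K (φ r p) i j - (U (φ r p) * U (φ r p)) i j) r)
    (hφ0 : ∀ x, φ 0 x = x) (hφσ : ∀ t x, σ (φ t x) = φ (-t) (σ x))
    (hK : ∀ x, K (σ x) = K x) (hκ : κ ≠ 0)
    (hS : ∀ x, U x + U (σ x) = κ • (1 : Matrix ι ι ℝ)) (x : P) :
    U x = (κ / 2) • (1 : Matrix ι ι ℝ) ∧ K x = (κ / 2) ^ 2 • (1 : Matrix ι ι ℝ) := by
  have key : ∀ x, U x = (κ / 2) • (1 : Matrix ι ι ℝ) := by
    intro x
    have h1 : U (σ x) * U (σ x) = U x * U x := by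
      ext i j
      have a1 := hR x 0 i j
      have a2 := flip_deriv (F := fun p => U p i j) (d := fun p => K p i j - (U p * U p) i j)
        hφσ (fun p r => hR p r i j) x
      have a3 := a1.add a2
      have a4 : (fun s => U (φ s x) i j) + (fun r => U (σ (φ r x)) i j) =
          fun _ => (κ • (1 : Matrix ι ι ℝ)) i j := by
        funext s
        rw [← hS (φ s x)]
        rfl
      rw [a4] at a3
      have a5 := a3.unique (hasDerivAt_const (0 : ℝ) _)
      simp only [hφ0, hK] at a5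
      linarith
    have h2 : U (σ x) = κ • (1 : Matrix ι ι ℝ) - U x := by
      rw [← hS x]; abel
    rw [h2] at h1
    have h3 : (κ • (1 : Matrix ι ι ℝ) - U x) * (κ • (1 : Matrix ι ι ℝ) - U x) - U x * U x =
        κ • (κ • (1 : Matrix ι ι ℝ) - (2 : ℝ) • U x) := by
      simp only [sub_mul, mul_sub, smul_mul_assoc, mul_smul_comm, one_mul, mul_one, smul_sub,
        smul_smul, two_smul, smul_add]
      abel_nf
    rw [h1, sub_self] at h3
    have h4 := (smul_eq_zero.1 h3.symm).resolve_left hκ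
    have h5 : (2 : ℝ) • U x = κ • (1 : Matrix ι ι ℝ) := (sub_eq_zero.1 h4).symm
    have h6 : U x = (2 : ℝ)⁻¹ • ((2 : ℝ) • U x) := by
      rw [smul_smul]; norm_num
    rw [h6, h5, smul_smul]
    congr 1
    ring
  refine ⟨key x, ?_⟩
  ext i j
  have a1 := hR x 0 i j
  have a2 : (fun s => U (φ s x) i j) = fun _ => ((κ / 2) • (1 : Matrix ι ι ℝ)) i j := by
    funext s; rw [key]
  rw [a2] at a1
  have a3 := a1.unique (hasDerivAt_const (0 : ℝ) _)
  simp only [hφ0, key] at a3
  have a4 : ((κ / 2) • (1 : Matrix ι ι ℝ)) * ((κ / 2) • (1 : Matrix ι ι ℝ)) =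
      (κ / 2) ^ 2 • (1 : Matrix ι ι ℝ) := by
    rw [smul_mul_assoc, one_mul, smul_smul, sq]
  rw [a4] at a3
  linarith

end Vale.Agent.P207.H582
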