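import Vale.Agent.P207.H281.PD

/-!
# P207, all dimensions, step 7: Lemma Q for a tensor which differs from another one by a factor and a
smooth tensor
-/

open Set Filter Topology Metric
open scoped ContDiff RealInnerProductSpace

set_option maxSynthPendingDepth 3

noncomputable section

namespace Vale.Agent.P207.H281

variable {E : Type*} [NormedAddCommGroup E] [InnerProductSpace ℝ E] [FiniteDimensional ℝ E]

/-- the pairing of two tensors -/
def pairL (E : Type*) [NormedAddCommGroup E] [InnerProductSpace ℝ E] [FiniteDimensional ℝ E] :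
    (E →L[ℝ] E) →L[ℝ] (E →L[ℝ] E) →L[ℝ] ℝ :=
  ((ContinuousLinearMap.compL ℝ (E →L[ℝ] E) (E →L[ℝ] E) ℝ) (trL E)).comp
    (ContinuousLinearMap.compL ℝ E E E)

theorem pairL_apply (A B : E →L[ℝ] E) : pairL E A B = trL E (A.comp B) := rfl

/-- the bounds for `c F + tr (R σ)` -/
def lkM (E : Type*) [NormedAddCommGroup E] [InnerProductSpace ℝ E] [FiniteDimensional ℝ E]
    (c : ℝ) (M M' : ℕ → ℝ) (k : ℕ) : ℝ :=
  |c| * M' k + ∑ i ∈ Finset.range (k + 1), (k.choose i : ℝ) * (‖pairL E‖ * M i) * M' (k - i)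

theorem SmB.link {c : ℝ} {M M' : ℕ → ℝ} {r : ℝ} {R σ : E → E →L[ℝ] E} {F : E → ℝ}
    (hR : SmB M r R) (hσ : SmB M' r σ) (hF : SmB M' r F) :
    SmB (lkM E c M M') r (fun x => c * F x + trL E ((R x).comp (σ x))) := by
  have h1 := hR.clm_comp (pairL E)
  exact (hF.const_smul c).add (h1.clm_apply hσ)

theorem LQ.neg {N : E → E →L[ℝ] E} {CQ : ℝ → ℝ → (ℕ → ℝ) → ℝ → ℝ} (h : LQ N CQ) :
    LQ (fun p => - N p) CQ := by
  intro r R M e hr hrR hR1 he σ F d hσ hF hs hd hd1 hb x hx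
  refine h r R M e hr hrR hR1 he σ (fun x => - F x) d hσ hF.neg hs hd hd1 (fun y hy => ?_) x hx
  have h1 : |trL E ((-N y).comp (σ y)) - F y| ≤ d := hb y hy
  rw [ContinuousLinearMap.neg_comp, map_neg] at h1
  rw [← abs_neg]
  have : -(trL E ((N y).comp (σ y)) - -F y) = -trL E ((N y).comp (σ y)) - F y := by ring
  rw [this]
  exact h1

/-- the constant -/
def lkC (E : Type*) [NormedAddCommGroup E] [InnerProductSpace ℝ E] [FiniteDimensional ℝ E]
    (CQ : ℝ → ℝ → (ℕ → ℝ) → ℝ → ℝ) (c : ℝ) (M : ℕ → ℝ) (r R : ℝ) (M' : ℕ → ℝ) (e : ℝ) : ℝ :=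
  |CQ r R (fun k => M' k + lkM E c M M' k) e| * |c| ^ (1 - e) + |M' 0| * (1 + |c| ^ (1 - e))

theorem LQ.link {N N' R : E → E →L[ℝ] E} {CQ : ℝ → ℝ → (ℕ → ℝ) → ℝ → ℝ} {c : ℝ} (hc : c ≠ 0)
    {M : ℕ → ℝ} (hN : ∀ p ∈ ball (0 : E) 1, N p = c • N' p + R p) (hR : SmB M 1 R)
    (h : LQ N CQ) : LQ N' (lkC E CQ c M) := by
  intro r R' M' e hr hrR hR1 he σ F d hσ hF hs hd hd1 hb x hx
  have hR0 : 0 < R' := by linarith
  have hRR : SmB M R' R := hR.mono_R hR1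
  have hL := SmB.link (c := c) hRR hσ hF
  have hc0 : 0 < |c| := abs_pos.2 hc
  have hM' : ∀ k, 0 ≤ M' k := hσ.M_nonneg hR0
  have hLn : ∀ k, 0 ≤ lkM E c M M' k := hL.M_nonneg hR0
  set M'' : ℕ → ℝ := fun k => M' k + lkM E c M M' k with hM''
  have hσ' : SmB M'' R' σ := hσ.mono_M fun k => by
    have := hLn k
    simp only [hM'']; linarith
  have hF' : SmB M'' R' (fun x => c * F x + trL E ((R x).comp (σ x))) := hL.mono_M fun k => by
    have := hM' k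
    simp only [hM'']; linarith
  have hcp : 0 < |c| ^ (1 - e) := Real.rpow_pos_of_pos hc0 _
  have hdp : 0 < d ^ (1 - e) := Real.rpow_pos_of_pos hd _
  have hxR : x ∈ ball (0 : E) R' := ball_subset_ball hrR.le hx
  by_cases hcd : |c| * d ≤ 1
  · have hb' : ∀ y ∈ ball (0 : E) R', |trL E ((N y).comp (σ y)) -
        (c * F y + trL E ((R y).comp (σ y)))| ≤ |c| * d := by
      intro y hy
      have h1 := hb y hy
      have e1 : trL E ((N y).comp (σ y)) = c * trL E ((N' y).comp (σ y)) +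
          trL E ((R y).comp (σ y)) := by
        rw [hN y (ball_subset_ball hR1 hy), ← pairL_apply, ← pairL_apply, ← pairL_apply, map_add,
          map_smul]
        rfl
      rw [e1]
      have e2 : c * trL E ((N' y).comp (σ y)) + trL E ((R y).comp (σ y)) -
          (c * F y + trL E ((R y).comp (σ y))) = c * (trL E ((N' y).comp (σ y)) - F y) := by ring
      rw [e2, abs_mul]
      exact mul_le_mul_of_nonneg_left h1 (abs_nonneg c)
    have h2 := h r R' M'' e hr hrR hR1 he σ _ (|c| * d) hσ' hF' hs (mul_pos hc0 hd) hcd hb' x hx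
    rw [Real.mul_rpow hc0.le hd.le] at h2
    have h3 : CQ r R' M'' e ≤ |CQ r R' M'' e| := le_abs_self _
    have h4 : 0 ≤ |M' 0| * (1 + |c| ^ (1 - e)) * d ^ (1 - e) := by positivity
    calc ‖σ x‖ ≤ CQ r R' M'' e * (|c| ^ (1 - e) * d ^ (1 - e)) := h2
      _ ≤ |CQ r R' M'' e| * (|c| ^ (1 - e) * d ^ (1 - e)) :=
          mul_le_mul_of_nonneg_right h3 (by positivity)
      _ ≤ |CQ r R' M'' e| * (|c| ^ (1 - e) * d ^ (1 - e)) +
          |M' 0| * (1 + |c| ^ (1 - e)) * d ^ (1 - e) := le_add_of_nonneg_right h4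
      _ = lkC E CQ c M r R' M' e * d ^ (1 - e) := by
          rw [lkC]; ring
  · have hcd' : 1 < |c| * d := not_le.1 hcd
    have h1 : 1 ≤ (1 + |c| ^ (1 - e)) * d ^ (1 - e) := by
      rcases le_or_gt e 1 with he1 | he1
      · have h2 : 1 ≤ (|c| * d) ^ (1 - e) := Real.one_le_rpow hcd'.le (by linarith)
        rw [Real.mul_rpow hc0.le hd.le] at h2
        nlinarith
      · have h2 : 1 ≤ d ^ (1 - e) := Real.one_le_rpow_of_pos_of_le_one_of_nonpos hd hd1 (by linarith)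
        nlinarith [mul_pos hcp hdp]
    have h3 : ‖σ x‖ ≤ |M' 0| := (hσ.norm_le hxR).trans (le_abs_self _)
    have h5 : 0 ≤ |CQ r R' M'' e| * |c| ^ (1 - e) * d ^ (1 - e) := by positivity
    calc ‖σ x‖ ≤ |M' 0| * 1 := by rw [mul_one]; exact h3
      _ ≤ |M' 0| * ((1 + |c| ^ (1 - e)) * d ^ (1 - e)) :=
          mul_le_mul_of_nonneg_left h1 (abs_nonneg _)
      _ ≤ |M' 0| * ((1 + |c| ^ (1 - e)) * d ^ (1 - e)) +
          |CQ r R' M'' e| * |c| ^ (1 - e) * d ^ (1 - e) := le_add_of_nonneg_right h5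
      _ = lkC E CQ c M r R' M' e * d ^ (1 - e) := by
          rw [lkC]; ring

/-- the constant does not depend on the base point -/
theorem LQ.of_link {CQ : ℝ → ℝ → (ℕ → ℝ) → ℝ → ℝ} {c : ℝ} (hc : 0 < c) (M : ℕ → ℝ) :
    ∃ CQ' : ℝ → ℝ → (ℕ → ℝ) → ℝ → ℝ, ∀ N N' R : E → E →L[ℝ] E,
      (∀ p ∈ ball (0 : E) 1, N p = c • N' p + R p) → SmB M 1 R → LQ N CQ → LQ N' CQ' :=
  ⟨lkC E CQ c M, fun _ _ _ hN hR h => h.link hc.ne' hN hR⟩

theorem LQ.of_link_neg {CQ : ℝ → ℝ → (ℕ → ℝ) → ℝ → ℝ} {c : ℝ} (hc : 0 < c) (M : ℕ → ℝ) :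
    ∃ CQ' : ℝ → ℝ → (ℕ → ℝ) → ℝ → ℝ, ∀ N N' R : E → E →L[ℝ] E,
      (∀ p ∈ ball (0 : E) 1, N p = c • N' p + R p) → SmB M 1 R → LQ N CQ →
        LQ (fun p => - N' p) CQ' :=
  ⟨lkC E CQ c M, fun _ _ _ hN hR h => (h.link hc.ne' hN hR).neg⟩

end Vale.Agent.P207.H281
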