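import Mathlib

/-!
# P207, all dimensions: linear algebra of symmetric positive matrices

* Jacobi's formula;
* `pos_of_lower` : a symmetric matrix with `l |x|² ≤ ⟨x, A x⟩` is positive definite, `l ^ n ≤ det A`;
* `trace_adj` : `tr (adj (U + V) (V² - U²)) = det (U + V) (tr V - tr U)`.
-/

open Filter Topology Set
open scoped Matrix

set_option linter.unusedSectionVars false

noncomputable section

namespace Vale.Agent.P207.H582

variable {ι : Type*} [Fintype ι] [DecidableEq ι]

theorem sum_updateCol_eq (X Y : Matrix ι ι ℝ) :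
    ∑ σ : Equiv.Perm ι, (Equiv.Perm.sign σ : ℤ) •
      ∑ i, (∏ j ∈ Finset.univ.erase i, X (σ j) j) * Y (σ i) i =
      (X.adjugate * Y).trace := by
  simp only [Finset.smul_sum]
  rw [Finset.sum_comm]
  rw [Matrix.trace]
  refine Finset.sum_congr rfl fun i _ => ?_
  have h1 : (X.adjugate * Y).diag i = (X.updateCol i (fun j => Y j i)).det := by
    rw [← Matrix.cramer_apply, Matrix.cramer_eq_adjugate_mulVec]
    simp only [Matrix.diag, Matrix.mul_apply, Matrix.mulVec, dotProduct]
  rw [h1, Matrix.det_apply]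
  refine Finset.sum_congr rfl fun σ _ => ?_
  have : ∏ k, (X.updateCol i (fun j => Y j i)) (σ k) k =
      (∏ j ∈ Finset.univ.erase i, X (σ j) j) * Y (σ i) i := by
    rw [← Finset.prod_erase_mul Finset.univ _ (Finset.mem_univ i)]
    congr 1
    · refine Finset.prod_congr rfl fun j hj => ?_
      rw [Matrix.updateCol_ne (Finset.ne_of_mem_erase hj)]
    · simp
  rw [this]
  rfl

/-- Jacobi's formula. -/
theorem hasDerivAt_det {N : ℝ → Matrix ι ι ℝ} {N' : Matrix ι ι ℝ} {t : ℝ}
    (hN : ∀ i j, HasDerivAt (fun s => N s i j) (N' i j) t) :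
    HasDerivAt (fun t => (N t).det) ((N t).adjugate * N').trace t := by
  rw [← sum_updateCol_eq]
  have h1 : ∀ t, (N t).det =
      ∑ σ : Equiv.Perm ι, (Equiv.Perm.sign σ : ℤ) • ∏ i, N t (σ i) i := by
    intro t
    rw [Matrix.det_apply]
    rfl
  simp only [h1]
  refine HasDerivAt.fun_sum (fun σ _ => ?_)
  have h2 := HasDerivAt.fun_finsetProd (u := Finset.univ) (x := t)
    (f := fun i t => N t (σ i) i) (f' := fun i => N' (σ i) i) (fun i _ => hN (σ i) i)
  simp only [smul_eq_mul] at h2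
  exact h2.const_smul ((Equiv.Perm.sign σ : ℤ))

theorem posDef_of_lower {A : Matrix ι ι ℝ} (hs : Aᵀ = A) {l : ℝ} (hl : 0 < l)
    (h : ∀ x : ι → ℝ, l * (x ⬝ᵥ x) ≤ x ⬝ᵥ (A *ᵥ x)) : A.PosDef := by
  have hH : A.IsHermitian := by
    rw [Matrix.IsHermitian, Matrix.conjTranspose_eq_transpose_of_trivial, hs]
  refine Matrix.PosDef.of_dotProduct_mulVec_pos hH fun x hx => ?_
  have h1 : 0 < x ⬝ᵥ x := by
    have h2 : 0 ≤ x ⬝ᵥ x := Finset.sum_nonneg fun i _ => mul_self_nonneg _
    rcases h2.lt_or_eq with h3 | h3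
    · exact h3
    · exact absurd (dotProduct_self_eq_zero.1 h3.symm) hx
  have h4 := h x
  have h5 : star x = x := by
    funext i
    simp
  rw [h5]
  have : 0 < l * (x ⬝ᵥ x) := mul_pos hl h1
  linarith

/-- the eigenvalues are at least `l` -/
theorem det_ge {A : Matrix ι ι ℝ} (hs : Aᵀ = A) {l : ℝ} (hl : 0 < l)
    (h : ∀ x : ι → ℝ, l * (x ⬝ᵥ x) ≤ x ⬝ᵥ (A *ᵥ x)) : l ^ Fintype.card ι ≤ A.det := by
  have hP := posDef_of_lower hs hl h
  have hH := hP.1
  have h1 : ∀ i, l ≤ hH.eigenvalues i := by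
    intro i
    set v : ι → ℝ := ⇑(hH.eigenvectorBasis i) with hv
    have e1 : A *ᵥ v = hH.eigenvalues i • v := hH.mulVec_eigenvectorBasis i
    have e2 := h v
    rw [e1, dotProduct_smul, smul_eq_mul] at e2
    have e3 : v ⬝ᵥ v = 1 := by
      have h2 := hH.eigenvectorBasis.orthonormal.1 i
      have h3 : ‖hH.eigenvectorBasis i‖ ^ 2 = 1 := by rw [h2, one_pow]
      rw [EuclideanSpace.norm_sq_eq] at h3
      rw [← h3, dotProduct]
      refine Finset.sum_congr rfl fun j _ => ?_
      rw [Real.norm_eq_abs, sq_abs, sq]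
    rw [e3, mul_one, mul_one] at e2
    exact e2
  have h2 : A.det = ∏ i, hH.eigenvalues i := by
    rw [hH.det_eq_prod_eigenvalues]
    simp
  rw [h2, ← Finset.card_univ, ← Finset.prod_const]
  exact Finset.prod_le_prod (fun _ _ => hl.le) fun i _ => h1 i

theorem trace_adj (U V : Matrix ι ι ℝ) :
    ((U + V).adjugate * (V * V - U * U)).trace = (U + V).det * (V.trace - U.trace) := by
  have h1 : (2 : ℝ) • (V * V - U * U) = (V - U) * (U + V) + (U + V) * (V - U) := by
    simp only [sub_mul, mul_sub, add_mul, mul_add, two_smul]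
    abel
  have h2 : (2 : ℝ) * ((U + V).adjugate * (V * V - U * U)).trace =
      2 * ((U + V).det * (V.trace - U.trace)) := by
    have e : (2 : ℝ) * ((U + V).adjugate * (V * V - U * U)).trace =
        ((U + V).adjugate * ((2 : ℝ) • (V * V - U * U))).trace := by
      rw [Matrix.mul_smul, Matrix.trace_smul, smul_eq_mul]
    rw [e, h1, Matrix.mul_add, Matrix.trace_add, ← Matrix.mul_assoc, ← Matrix.mul_assoc,
      Matrix.adjugate_mul, Matrix.trace_mul_comm ((U + V).adjugate * (V - U)) (U + V),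
      ← Matrix.mul_assoc, Matrix.mul_adjugate, smul_mul_assoc, one_mul, Matrix.trace_smul,
      Matrix.trace_sub, smul_eq_mul]
    ring
  exact mul_left_cancel₀ two_ne_zero h2

end Vale.Agent.P207.H582
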