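import Mathlib

/-! Mathlib only: second order expansion of the inverse of a perturbed operator, and the inverse of a
congruence.  P207. -/

namespace Vale.Agent.P207.H281

open ContinuousLinearMap

variable {E : Type*} [NormedAddCommGroup E] [InnerProductSpace ℝ E] [FiniteDimensional ℝ E]

theorem inverse_conj {A M Hd : E →L[ℝ] E} (hA : IsUnit A) (hM : IsUnit M)
    (h : (ContinuousLinearMap.adjoint A).comp (Hd.comp A) = M) :
    Ring.inverse Hd = A.comp ((Ring.inverse M).comp (ContinuousLinearMap.adjoint A)) := by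
  have h1 : star A * (Hd * A) = M := h
  have hs : IsUnit (star A) := hA.star
  have hHd : Hd = Ring.inverse (star A) * (M * Ring.inverse A) := by
    rw [← h1]
    calc Hd = (Ring.inverse (star A) * star A) * Hd * (A * Ring.inverse A) := by
          rw [Ring.inverse_mul_cancel _ hs, Ring.mul_inverse_cancel _ hA]; simp
      _ = _ := by simp only [mul_assoc]
  have hu : IsUnit Hd := by
    rw [hHd]
    exact (hs.ringInverse).mul (hM.mul hA.ringInverse)
  have h2 : (A * (Ring.inverse M * star A)) * Hd = 1 := by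
    rw [hHd]
    calc (A * (Ring.inverse M * star A)) * (Ring.inverse (star A) * (M * Ring.inverse A))
        = A * (Ring.inverse M * ((star A * Ring.inverse (star A)) * M)) * Ring.inverse A := by
          simp only [mul_assoc]
      _ = 1 := by
          rw [Ring.mul_inverse_cancel _ hs, one_mul, Ring.inverse_mul_cancel _ hM, mul_one,
            Ring.mul_inverse_cancel _ hA]
  have h3 : Ring.inverse Hd = A * (Ring.inverse M * star A) := by
    calc Ring.inverse Hd = (A * (Ring.inverse M * star A)) * Hd * Ring.inverse Hd := by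
          rw [h2, one_mul]
      _ = _ := by rw [mul_assoc, Ring.mul_inverse_cancel _ hu, mul_one]
  exact h3

theorem resolvent {R H : E →L[ℝ] E} {K : ℝ} (hR : IsUnit R) (hK : ‖Ring.inverse R‖ ≤ K)
    (hH : 2 * K * ‖H‖ ≤ 1) :
    IsUnit (H + R) ∧
    ‖Ring.inverse (H + R) - (Ring.inverse R - (Ring.inverse R).comp (H.comp (Ring.inverse R)))‖
      ≤ 2 * K ^ 3 * ‖H‖ ^ 2 := by
  have hK0 : 0 ≤ K := le_trans (norm_nonneg _) hK
  set P : E →L[ℝ] E := Ring.inverse R with hP
  have hRP : R * P = 1 := Ring.mul_inverse_cancel _ hR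
  have hPR : P * R = 1 := Ring.inverse_mul_cancel _ hR
  set X : E →L[ℝ] E := -(P * H) with hX
  have hX1 : ‖X‖ ≤ K * ‖H‖ := by
    rw [hX, norm_neg]
    exact (norm_mul_le _ _).trans (mul_le_mul_of_nonneg_right hK (norm_nonneg _))
  have hXh : ‖X‖ ≤ 1 / 2 := by linarith
  have hX2 : ‖X‖ < 1 := by linarith
  have hfac : H + R = R * (1 - X) := by
    rw [hX, sub_neg_eq_add, mul_add, mul_one, ← mul_assoc, hRP, one_mul, add_comm]
  have hu1 : IsUnit (1 - X) := isUnit_one_sub_of_norm_lt_one hX2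
  have hu : IsUnit (H + R) := by rw [hfac]; exact hR.mul hu1
  refine ⟨hu, ?_⟩
  -- `Q = (1 - X)⁻¹`
  set Q : E →L[ℝ] E := Ring.inverse (1 - X) with hQ
  have hQ1 : (1 - X) * Q = 1 := Ring.mul_inverse_cancel _ hu1
  have hQ2 : Q * (1 - X) = 1 := Ring.inverse_mul_cancel _ hu1
  have hinv : Ring.inverse (H + R) = Q * P := by
    have e1 : (Q * P) * (H + R) = 1 := by
      rw [hfac]
      calc (Q * P) * (R * (1 - X)) = Q * (P * R) * (1 - X) := by simp only [mul_assoc]
        _ = 1 := by rw [hPR, mul_one, hQ2]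
    calc Ring.inverse (H + R) = (Q * P) * (H + R) * Ring.inverse (H + R) := by rw [e1, one_mul]
      _ = _ := by rw [mul_assoc, Ring.mul_inverse_cancel _ hu, mul_one]
  -- `Q = 1 + X + Q X ^ 2`
  have hQ3 : Q = 1 + X + Q * (X * X) := by
    have : Q * (1 - X) * (1 + X) = 1 + X := by rw [hQ2, one_mul]
    have h2 : Q * (1 - X) * (1 + X) = Q - Q * (X * X) := by
      rw [mul_assoc]
      have : (1 - X) * (1 + X) = 1 - X * X := by noncomm_ring
      rw [this, mul_sub, mul_one]
    rw [h2] at this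
    rw [← this]; abel
  have hQn : ‖Q‖ ≤ 2 := by
    have h1 : Q = 1 + Q * X := by
      have : Q - Q * X = 1 := by rw [← hQ2, mul_sub, mul_one]
      rw [← this]; abel
    have h2 : ‖Q‖ ≤ 1 + ‖Q‖ * (1 / 2) := by
      calc ‖Q‖ = ‖1 + Q * X‖ := by rw [← h1]
        _ ≤ ‖(1 : E →L[ℝ] E)‖ + ‖Q * X‖ := norm_add_le _ _
        _ ≤ 1 + ‖Q‖ * (1 / 2) := by
          refine add_le_add ?_ ?_
          · exact ContinuousLinearMap.norm_id_le
          · exact (norm_mul_le _ _).trans (mul_le_mul_of_nonneg_left hXh (norm_nonneg _))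
    linarith
  have hdiff : Ring.inverse (H + R) - (P - P * (H * P)) = Q * (X * X) * P := by
    rw [hinv]
    have h1 : P - P * (H * P) = (1 + X) * P := by
      rw [hX]; noncomm_ring
    rw [h1, ← sub_mul]
    congr 1
    rw [sub_eq_iff_eq_add', ← hQ3]
  have hdiff' : Ring.inverse (H + R) - (P - P.comp (H.comp P)) = Q * (X * X) * P := hdiff
  rw [hdiff']
  calc ‖Q * (X * X) * P‖ ≤ ‖Q‖ * (‖X‖ * ‖X‖) * ‖P‖ := by
        refine (norm_mul_le _ _).trans (mul_le_mul_of_nonneg_right ?_ (norm_nonneg _))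
        refine (norm_mul_le _ _).trans (mul_le_mul_of_nonneg_left (norm_mul_le _ _) (norm_nonneg _))
    _ ≤ 2 * ((K * ‖H‖) * (K * ‖H‖)) * K := by
        have : 0 ≤ K * ‖H‖ := mul_nonneg hK0 (norm_nonneg _)
        gcongr
    _ = 2 * K ^ 3 * ‖H‖ ^ 2 := by ring

end Vale.Agent.P207.H281
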